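import Vale.Agent.H16.FIID.M10Final

/-!
# The free Ising state on `T_d` is a factor of IID for every `θ < (d-1)^{-1/2}`
-/

namespace Vale.Agent.Results.P161.Subcritical

open MeasureTheory Vale.Agent.H16.FIID

/-- For every `d ≥ 3`, every `d`-regular tree and every `β ≥ 0` with `tanh β < (d-1)^{-1/2}`, the
free zero-field Ising state at inverse temperature `β` exists, is unique, and is a factor of IID. -/
theorem result (d : ℕ) (hd : 3 ≤ d) (V : Type) (G : SimpleGraph V) (hG : IsRegularTree G d)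
    (β : ℝ) (hβ : 0 ≤ β) (hβc : Real.tanh β < 1 / Real.sqrt ((d : ℝ) - 1)) :
    ∃ μ : Measure (V → Bool), IsProbabilityMeasure μ ∧ IsFreeIsing G (Real.tanh β) μ ∧
      (∀ ν : Measure (V → Bool), IsFreeIsing G (Real.tanh β) ν → ν = μ) ∧ IsFactorOfIID G μ := by
  obtain ⟨b, rfl⟩ : ∃ b, d = b + 1 := ⟨d - 1, by omega⟩
  have h0 : 0 ≤ Real.tanh β := by
    rw [Real.tanh_eq_sinh_div_cosh]
    exact div_nonneg (Real.sinh_nonneg_iff.2 hβ) (Real.cosh_pos β).le
  have hb : (0 : ℝ) < b := by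
    have : 2 ≤ b := by omega
    exact_mod_cast (by omega : 0 < b)
  have hcast : ((b + 1 : ℕ) : ℝ) - 1 = b := by push_cast; ring
  rw [hcast] at hβc
  have hsb : 0 < Real.sqrt b := Real.sqrt_pos.2 hb
  refine fiid_of_subcritical G (by omega) hG h0 ?_
  rw [lt_div_iff₀ hsb] at hβc
  have h5 : (Real.tanh β * Real.sqrt b) ^ 2 < 1 ^ 2 :=
    pow_lt_pow_left₀ hβc (by positivity) (by norm_num)
  rw [mul_pow, Real.sq_sqrt hb.le] at h5
  linarith

end Vale.Agent.Results.P161.Subcritical
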